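import Mathlib

open Finset

namespace Vale.Agent.P028h

noncomputable section

/-- the weight `φ(q)/q` -/
def th (q : ℕ) : ℝ := (Nat.totient q : ℝ) / q

theorem th_nonneg (q : ℕ) : 0 ≤ th q := by unfold th; positivity

theorem th_eq (q : ℕ) (hq : q ≠ 0) : th q = ∏ p ∈ q.primeFactors, (1 - (p : ℝ)⁻¹) := by
  have h := Nat.totient_eq_mul_prod_factors q
  have h2 : ((Nat.totient q : ℚ) : ℝ) = ((q * ∏ p ∈ q.primeFactors, (1 - (p : ℚ)⁻¹) : ℚ) : ℝ) := by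
    rw [h]
  push_cast at h2
  unfold th
  rw [h2]
  have : (q : ℝ) ≠ 0 := by exact_mod_cast hq
  field_simp

theorem fac_mem (q : ℕ) (p : ℕ) (hp : p ∈ q.primeFactors) :
    0 ≤ 1 - (p : ℝ)⁻¹ ∧ 1 - (p : ℝ)⁻¹ ≤ 1 := by
  have hp' : 2 ≤ p := (Nat.prime_of_mem_primeFactors hp).two_le
  have h2 : (2 : ℝ) ≤ p := by exact_mod_cast hp'
  constructor
  · have : (p : ℝ)⁻¹ ≤ 1 := inv_le_one_of_one_le₀ (by linarith)
    linarith
  · have : 0 ≤ (p : ℝ)⁻¹ := by positivity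
    linarith

theorem th_anti (d q : ℕ) (hq : q ≠ 0) (h : d ∣ q) : th q ≤ th d := by
  have hd : d ≠ 0 := fun h0 => hq (by subst h0; exact Nat.eq_zero_of_zero_dvd h)
  rw [th_eq q hq, th_eq d hd]
  have hsub := Nat.primeFactors_mono h hq
  rw [← Finset.prod_sdiff hsub]
  have h1 : ∏ p ∈ q.primeFactors \ d.primeFactors, (1 - (p : ℝ)⁻¹) ≤ 1 := by
    apply Finset.prod_le_one
    · intro p hp; exact (fac_mem q p (Finset.mem_sdiff.mp hp).1).1
    · intro p hp; exact (fac_mem q p (Finset.mem_sdiff.mp hp).1).2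
  have h2 : 0 ≤ ∏ p ∈ d.primeFactors, (1 - (p : ℝ)⁻¹) :=
    Finset.prod_nonneg (fun p hp => (fac_mem d p hp).1)
  calc _ ≤ 1 * ∏ p ∈ d.primeFactors, (1 - (p : ℝ)⁻¹) := mul_le_mul_of_nonneg_right h1 h2
    _ = _ := one_mul _

theorem th_pow (m k : ℕ) (hk : k ≠ 0) (hm : m ≠ 0) : th (m ^ k) = th m := by
  rw [th_eq _ (pow_ne_zero k hm), th_eq m hm, Nat.primeFactors_pow m hk]

theorem sum_gcd (w : ℕ → ℝ) (hw : ∀ d, 0 ≤ w d) (r : ℕ) (hr : 0 < r) :
    ∑ q ∈ range r, th q * w (Nat.gcd q r) ≤ ∑ d ∈ r.divisors, th d * w d * (r / d : ℕ) := by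
  classical
  have hmaps : ∀ q ∈ range r, Nat.gcd r q ∈ r.divisors := by
    intro q _
    rw [Nat.mem_divisors]
    exact ⟨Nat.gcd_dvd_left r q, hr.ne'⟩
  rw [← Finset.sum_fiberwise_of_maps_to hmaps]
  apply Finset.sum_le_sum
  intro d hd
  rw [Nat.mem_divisors] at hd
  have hcard : ((range r).filter (fun q => Nat.gcd r q = d)).card = Nat.totient (r / d) := by
    rw [Nat.totient_div_of_dvd hd.1]
  have hle : ∀ q ∈ (range r).filter (fun q => Nat.gcd r q = d), th q * w (Nat.gcd q r) ≤ th d * w d := by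
    intro q hq
    rw [Finset.mem_filter] at hq
    obtain ⟨_, hq2⟩ := hq
    rw [Nat.gcd_comm q r, hq2]
    apply mul_le_mul_of_nonneg_right _ (hw d)
    rcases Nat.eq_zero_or_pos q with h | h
    · subst h; simp [th]; positivity
    · exact th_anti d q h.ne' (hq2 ▸ Nat.gcd_dvd_right r q)
  have h1 := Finset.sum_le_card_nsmul _ _ _ hle
  rw [hcard, nsmul_eq_mul] at h1
  refine h1.trans ?_
  rw [mul_comm]
  apply mul_le_mul_of_nonneg_left _ (mul_nonneg (th_nonneg d) (hw d))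
  exact_mod_cast Nat.totient_le (r / d)

theorem th_mul_self (d : ℕ) : th d * d = Nat.totient d := by
  unfold th
  rcases Nat.eq_zero_or_pos d with h | h
  · subst h; simp
  · field_simp

/-- bounded number of divisors -/
theorem sum_bdd (r k : ℕ) (hr : 0 < r) (hk : r.divisors.card ≤ k) :
    ∑ q ∈ range r, th q * (Nat.gcd q r : ℝ) ≤ k * r := by
  have h1 := sum_gcd (fun d => (d : ℝ)) (fun d => Nat.cast_nonneg d) r hr
  refine h1.trans ?_
  have h2 : ∀ d ∈ r.divisors, th d * (d : ℝ) * ((r / d : ℕ) : ℝ) ≤ r := by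
    intro d hd
    rw [Nat.mem_divisors] at hd
    rw [th_mul_self]
    have : d * (r / d) = r := Nat.mul_div_cancel' hd.1
    have h3 : (d : ℝ) * ((r / d : ℕ) : ℝ) = r := by exact_mod_cast this
    rw [← h3]
    apply mul_le_mul_of_nonneg_right _ (Nat.cast_nonneg _)
    exact_mod_cast Nat.totient_le d
  have h3 := Finset.sum_le_card_nsmul _ _ _ h2
  rw [nsmul_eq_mul] at h3
  refine h3.trans ?_
  apply mul_le_mul_of_nonneg_right _ (Nat.cast_nonneg _)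
  exact_mod_cast hk

/-- squares: the weighted gcd-sum is at most `n^2`. -/
theorem sum_sq (n : ℕ) (hn : 0 < n) :
    ∑ m ∈ range n, th m * ((Nat.gcd m n : ℝ)) ^ 2 ≤ (n : ℝ) ^ 2 := by
  have h1 := sum_gcd (fun d => (d : ℝ) ^ 2) (fun d => by positivity) n hn
  refine h1.trans ?_
  have h2 : ∀ d ∈ n.divisors, th d * (d : ℝ) ^ 2 * ((n / d : ℕ) : ℝ) = n * (Nat.totient d : ℝ) := by
    intro d hd
    rw [Nat.mem_divisors] at hd
    have : d * (n / d) = n := Nat.mul_div_cancel' hd.1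
    have h3 : (d : ℝ) * ((n / d : ℕ) : ℝ) = n := by exact_mod_cast this
    calc th d * (d : ℝ) ^ 2 * ((n / d : ℕ) : ℝ) = (th d * d) * ((d : ℝ) * ((n / d : ℕ) : ℝ)) := by ring
      _ = n * (Nat.totient d : ℝ) := by rw [th_mul_self, h3]; ring
  rw [Finset.sum_congr rfl h2, ← Finset.mul_sum]
  have h4 : ∑ d ∈ n.divisors, (Nat.totient d : ℝ) = n := by
    exact_mod_cast Nat.sum_totient n
  rw [h4]
  nlinarith

/-- powers -/
theorem sum_pow (k n : ℕ) (hk : 2 ≤ k) (hn : 0 < n) :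
    ∑ m ∈ range n, th m * ((Nat.gcd m n : ℝ)) ^ k ≤ (n : ℝ) ^ k := by
  obtain ⟨j, rfl⟩ := Nat.exists_eq_add_of_le hk
  have h1 : ∀ m ∈ range n, th m * ((Nat.gcd m n : ℝ)) ^ (2 + j) ≤
      (n : ℝ) ^ j * (th m * ((Nat.gcd m n : ℝ)) ^ 2) := by
    intro m _
    have hg : (Nat.gcd m n : ℝ) ≤ n := by exact_mod_cast Nat.gcd_le_right m hn
    have hp : ((Nat.gcd m n : ℝ)) ^ j ≤ (n : ℝ) ^ j := pow_le_pow_left₀ (Nat.cast_nonneg _) hg j
    calc th m * ((Nat.gcd m n : ℝ)) ^ (2 + j)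
        = ((Nat.gcd m n : ℝ)) ^ j * (th m * ((Nat.gcd m n : ℝ)) ^ 2) := by ring
      _ ≤ (n : ℝ) ^ j * (th m * ((Nat.gcd m n : ℝ)) ^ 2) :=
          mul_le_mul_of_nonneg_right hp (mul_nonneg (th_nonneg m) (by positivity))
  calc ∑ m ∈ range n, th m * ((Nat.gcd m n : ℝ)) ^ (2 + j)
      ≤ ∑ m ∈ range n, (n : ℝ) ^ j * (th m * ((Nat.gcd m n : ℝ)) ^ 2) := Finset.sum_le_sum h1
    _ = (n : ℝ) ^ j * ∑ m ∈ range n, (th m * ((Nat.gcd m n : ℝ)) ^ 2) := by rw [Finset.mul_sum]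
    _ ≤ (n : ℝ) ^ j * (n : ℝ) ^ 2 := mul_le_mul_of_nonneg_left (sum_sq n hn) (by positivity)
    _ = (n : ℝ) ^ (2 + j) := by ring

end

end Vale.Agent.P028h
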