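import Mathlib

open Finset

namespace Vale.Agent.P028h

/-- Counting lemma: number of `j < r` for which `z + q*j/r` is within `b` of an integer. -/
theorem count_le (z b : ℝ) (hb : 0 ≤ b) (q r : ℕ) (hr : 0 < r) :
    (((Finset.range r).filter (fun j : ℕ => |z + (q : ℝ) * j / r - round (z + (q : ℝ) * j / r)| ≤ b)).card : ℝ)
      ≤ 2 * b * r + Nat.gcd q r := by
  classical
  set g := Nat.gcd q r with hg
  have hgpos : 0 < g := Nat.gcd_pos_of_pos_right _ hr
  obtain ⟨q', hq'⟩ : g ∣ q := Nat.gcd_dvd_left q r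
  obtain ⟨r', hr'⟩ : g ∣ r := Nat.gcd_dvd_right q r
  have hr'pos : 0 < r' := by
    rcases Nat.eq_zero_or_pos r' with h | h
    · subst h; simp at hr'; omega
    · exact h
  have hcop : Nat.Coprime q' r' := by
    have h1 := Nat.coprime_div_gcd_div_gcd (m := q) (n := r) hgpos
    rw [← hg] at h1
    have h2 : q / g = q' := by rw [hq']; exact Nat.mul_div_cancel_left _ hgpos
    have h3 : r / g = r' := by rw [hr']; exact Nat.mul_div_cancel_left _ hgpos
    rwa [h2, h3] at h1
  have hgR : (0 : ℝ) < g := by exact_mod_cast hgpos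
  have hr'R : (0 : ℝ) < r' := by exact_mod_cast hr'pos
  have hqR : (q : ℝ) = g * q' := by rw [hq']; push_cast; rfl
  have hrR : (r : ℝ) = g * r' := by rw [hr']; push_cast; rfl
  -- the integer attached to j
  let m : ℕ → ℤ := fun j => round (z + (q : ℝ) * j / r)
  let k : ℕ → ℤ := fun j => (q' : ℤ) * j - (r' : ℤ) * m j
  let S := (Finset.range r).filter (fun j : ℕ => |z + (q : ℝ) * j / r - round (z + (q : ℝ) * j / r)| ≤ b)
  let T : Finset (ℤ × ℕ) := (Finset.Icc ⌈-(b * r') - z * r'⌉ ⌊b * r' - z * r'⌋) ×ˢ (Finset.range g)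
  have key : ∀ j : ℕ, (z + (q : ℝ) * j / r - m j) * r' = z * r' + k j := by
    intro j
    have : (q : ℝ) * j / r = (q' : ℝ) * j / r' := by
      rw [hqR, hrR]; field_simp
    rw [this]
    simp only [k]
    push_cast
    field_simp
    ring
  have hmaps : ∀ j ∈ S, (k j, j / r') ∈ T := by
    intro j hj
    simp only [S, Finset.mem_filter, Finset.mem_range] at hj
    obtain ⟨hj1, hj2⟩ := hj
    have hj3 : |z + (q : ℝ) * j / r - m j| ≤ b := hj2
    have h1 := abs_le.mp hj3
    have h2 := key j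
    have hlow : -(b * r') ≤ z * r' + k j := by
      rw [← h2]; nlinarith [h1.1]
    have hup : z * r' + k j ≤ b * r' := by
      rw [← h2]; nlinarith [h1.2]
    simp only [T, Finset.mem_product, Finset.mem_Icc, Finset.mem_range]
    refine ⟨⟨?_, ?_⟩, ?_⟩
    · apply Int.ceil_le.mpr; linarith
    · apply Int.le_floor.mpr; linarith
    · apply (Nat.div_lt_iff_lt_mul hr'pos).mpr
      rw [hr'] at hj1
      exact hj1
  have hinj : Set.InjOn (fun j : ℕ => (k j, j / r')) (S : Set ℕ) := by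
    intro i hi j hj hij
    simp only [Prod.mk.injEq] at hij
    obtain ⟨h1, h2⟩ := hij
    have h3 : (r' : ℤ) ∣ (q' : ℤ) * ((i : ℤ) - j) := by
      refine ⟨m i - m j, ?_⟩
      simp only [k] at h1
      linarith
    have h4 : IsCoprime (r' : ℤ) (q' : ℤ) := by
      exact_mod_cast (Nat.isCoprime_iff_coprime.mpr hcop.symm)
    have h5 : (r' : ℤ) ∣ ((i : ℤ) - j) := h4.dvd_of_dvd_mul_left h3
    have h6 : (i : ℤ) ≡ (j : ℤ) [ZMOD (r' : ℤ)] := by
      exact (Int.modEq_iff_dvd.mpr (by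
        have := (dvd_neg (a := (r' : ℤ))).mpr h5
        simpa using this))
    have h7 : i ≡ j [MOD r'] := (Int.natCast_modEq_iff).mp h6
    have h8 : i % r' = j % r' := h7
    calc i = r' * (i / r') + i % r' := (Nat.div_add_mod i r').symm
      _ = r' * (j / r') + j % r' := by rw [h2, h8]
      _ = j := Nat.div_add_mod j r'
  have hcard : S.card ≤ T.card :=
    Finset.card_le_card_of_injOn _ hmaps hinj
  have hTcard : (T.card : ℝ) ≤ (2 * b * r' + 1) * g := by
    simp only [T, Finset.card_product, Finset.card_range, Int.card_Icc]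
    push_cast
    apply mul_le_mul_of_nonneg_right _ hgR.le
    have hle : ((⌊b * r' - z * r'⌋ + 1 - ⌈-(b * r') - z * r'⌉).toNat : ℝ)
        ≤ max ((⌊b * r' - z * r'⌋ + 1 - ⌈-(b * r') - z * r'⌉ : ℤ) : ℝ) 0 := by
      rcases le_total 0 (⌊b * r' - z * r'⌋ + 1 - ⌈-(b * r') - z * r'⌉) with h | h
      · have := Int.toNat_of_nonneg h
        have h' : (((⌊b * r' - z * r'⌋ + 1 - ⌈-(b * r') - z * r'⌉).toNat : ℤ) : ℝ)
          = ((⌊b * r' - z * r'⌋ + 1 - ⌈-(b * r') - z * r'⌉ : ℤ) : ℝ) := by rw [this]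
        have h'' : ((⌊b * r' - z * r'⌋ + 1 - ⌈-(b * r') - z * r'⌉).toNat : ℝ)
          = ((⌊b * r' - z * r'⌋ + 1 - ⌈-(b * r') - z * r'⌉ : ℤ) : ℝ) := by exact_mod_cast h'
        rw [h'']; exact le_max_left _ _
      · rw [Int.toNat_of_nonpos h]; simp
    refine hle.trans (max_le ?_ (by positivity))
    push_cast
    have e1 := Int.floor_le (b * r' - z * r')
    have e2 := Int.le_ceil (-(b * r') - z * r')
    linarith
  have hfin : (S.card : ℝ) ≤ (2 * b * r' + 1) * g := le_trans (by exact_mod_cast hcard) hTcard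
  calc (S.card : ℝ) ≤ (2 * b * r' + 1) * g := hfin
    _ = 2 * b * r + g := by rw [hrR]; ring

end Vale.Agent.P028h
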