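import Mathlib
import Vale.Agent.P028h.Count

open MeasureTheory Finset

namespace Vale.Agent.P028h

noncomputable section

/-- The set of points of the circle whose `q`-fold is within `ρ q` of `γ q`. -/
def B (γ ρ : ℕ → ℝ) (q : ℕ) : Set UnitAddCircle :=
  {x | ‖q • x - ((γ q : ℝ) : UnitAddCircle)‖ ≤ ρ q}

theorem isClosed_B (γ ρ : ℕ → ℝ) (q : ℕ) : IsClosed (B γ ρ q) := by
  unfold B
  exact isClosed_le (by fun_prop) continuous_const

theorem measurableSet_B (γ ρ : ℕ → ℝ) (q : ℕ) : MeasurableSet (B γ ρ q) :=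
  (isClosed_B γ ρ q).measurableSet

theorem mp_nsmul (q : ℕ) (hq : 0 < q) :
    MeasurePreserving (fun y : UnitAddCircle => q • y) volume volume := by
  rcases Nat.lt_or_ge 1 q with h | h
  · exact (AddCircle.ergodic_nsmul h).toMeasurePreserving
  · have : q = 1 := by omega
    subst this
    have h1 : (fun y : UnitAddCircle => 1 • y) = id := by funext y; simp
    rw [h1]
    exact MeasurePreserving.id (volume : Measure UnitAddCircle)

theorem volume_B (γ ρ : ℕ → ℝ) (q : ℕ) (hq : 0 < q) (h1 : ρ q ≤ 1 / 2) :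
    volume (B γ ρ q) = ENNReal.ofReal (2 * ρ q) := by
  have h : B γ ρ q = (fun y : UnitAddCircle => q • y) ⁻¹'
      (Metric.closedBall ((γ q : ℝ) : UnitAddCircle) (ρ q)) := by
    ext x
    simp [B, Metric.mem_closedBall, dist_eq_norm]
  rw [h, (mp_nsmul q hq).measure_preimage Metric.isClosed_closedBall.measurableSet.nullMeasurableSet,
    AddCircle.volume_closedBall]
  congr 1
  apply min_eq_right; linarith

theorem mem_B_coe (γ ρ : ℕ → ℝ) (q : ℕ) (x : ℝ) :
    (x : UnitAddCircle) ∈ B γ ρ q ↔ |q * x - γ q - round (q * x - γ q)| ≤ ρ q := by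
  unfold B
  simp only [Set.mem_ofPred_eq]
  have : q • (x : UnitAddCircle) - ((γ q : ℝ) : UnitAddCircle) = ((q * x - γ q : ℝ) : UnitAddCircle) := by
    rw [AddCircle.coe_sub, ← nsmul_eq_mul, AddCircle.coe_nsmul]
  rw [this, UnitAddCircle.norm_eq]

theorem B_shift (γ ρ : ℕ → ℝ) (r : ℕ) (hr : 0 < r) (j : ℕ) :
    (fun h : UnitAddCircle => h + ((j / r : ℝ) : UnitAddCircle)) ⁻¹' B γ ρ r = B γ ρ r := by
  ext x
  simp only [Set.mem_preimage, B, Set.mem_ofPred_eq]
  have : r • (x + ((j / r : ℝ) : UnitAddCircle)) = r • x := by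
    rw [nsmul_add, ← AddCircle.coe_nsmul, nsmul_eq_mul]
    have hr' : (r : ℝ) ≠ 0 := by positivity
    rw [mul_div_cancel₀ _ hr']
    have : ((j : ℝ) : UnitAddCircle) = 0 := by
      have := AddCircle.coe_eq_zero_iff (p := (1 : ℝ)) (x := (j : ℝ))
      rw [this]
      exact ⟨j, by simp⟩
    rw [this, add_zero]
  rw [this]

theorem card_shift (γ ρ : ℕ → ℝ) (q r : ℕ) (hr : 0 < r) (hρ : 0 ≤ ρ q) (x : UnitAddCircle) :
    (∑ j ∈ range r, (((fun h : UnitAddCircle => h + ((j / r : ℝ) : UnitAddCircle)) ⁻¹' B γ ρ q).indicator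
      (fun _ => (1 : ENNReal)) x)) ≤ ENNReal.ofReal (2 * ρ q * r + Nat.gcd q r) := by
  classical
  obtain ⟨t, rfl⟩ := QuotientAddGroup.mk_surjective x
  have hc := count_le (q * t - γ q) (ρ q) hρ q r hr
  have h1 : (∑ j ∈ range r, (((fun h : UnitAddCircle => h + ((j / r : ℝ) : UnitAddCircle)) ⁻¹' B γ ρ q).indicator
      (fun _ => (1 : ENNReal)) (t : UnitAddCircle)))
      = (((Finset.range r).filter (fun j : ℕ => |(q * t - γ q) + (q : ℝ) * j / r
          - round ((q * t - γ q) + (q : ℝ) * j / r)| ≤ ρ q)).card : ENNReal) := by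
    rw [Finset.card_filter, Nat.cast_sum]
    apply Finset.sum_congr rfl
    intro j _
    rw [Set.indicator_apply]
    have h2 : ((t : UnitAddCircle) ∈ (fun h : UnitAddCircle => h + ((j / r : ℝ) : UnitAddCircle)) ⁻¹' B γ ρ q)
        ↔ |(q * t - γ q) + (q : ℝ) * j / r - round ((q * t - γ q) + (q : ℝ) * j / r)| ≤ ρ q := by
      rw [Set.mem_preimage]
      have h3 : (t : UnitAddCircle) + ((j / r : ℝ) : UnitAddCircle) = ((t + j / r : ℝ) : UnitAddCircle) := by
        rw [AddCircle.coe_add]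
      rw [h3, mem_B_coe]
      have h4 : (q : ℝ) * (t + j / r) - γ q = (q * t - γ q) + (q : ℝ) * j / r := by ring
      rw [h4]
    by_cases h5 : |(q * t - γ q) + (q : ℝ) * j / r - round ((q * t - γ q) + (q : ℝ) * j / r)| ≤ ρ q
    · rw [if_pos (h2.mpr h5), if_pos h5]; simp
    · rw [if_neg (fun h => h5 (h2.mp h)), if_neg h5]; simp
  have h6 : ((t : ℝ) : UnitAddCircle) = (QuotientAddGroup.mk t : UnitAddCircle) := rfl
  rw [← h6, h1]
  rw [← ENNReal.ofReal_natCast]
  exact ENNReal.ofReal_le_ofReal hc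

theorem overlap (γ ρ : ℕ → ℝ) (q r : ℕ) (hr : 0 < r) (hρ : 0 ≤ ρ q) :
    (volume (B γ ρ q ∩ B γ ρ r)).toReal ≤ (2 * ρ q + Nat.gcd q r / r) * (volume (B γ ρ r)).toReal := by
  have hrR : (0 : ℝ) < r := by exact_mod_cast hr
  have hinv : ∀ j : ℕ, volume (B γ ρ q ∩ B γ ρ r) =
      ∫⁻ x in B γ ρ r, (((fun h : UnitAddCircle => h + ((j / r : ℝ) : UnitAddCircle)) ⁻¹' B γ ρ q).indicator
      (fun _ => (1 : ENNReal)) x) := by
    intro j
    have hm : MeasurableSet ((fun h : UnitAddCircle => h + ((j / r : ℝ) : UnitAddCircle)) ⁻¹' B γ ρ q) :=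
      (measurableSet_B γ ρ q).preimage (by fun_prop)
    rw [lintegral_indicator_const hm, one_mul, Measure.restrict_apply hm]
    conv_rhs => rw [← B_shift γ ρ r hr j]
    rw [← Set.preimage_inter, measure_preimage_add_right]
  have hsum : (r : ENNReal) * volume (B γ ρ q ∩ B γ ρ r) ≤
      ENNReal.ofReal (2 * ρ q * r + Nat.gcd q r) * volume (B γ ρ r) := by
    calc (r : ENNReal) * volume (B γ ρ q ∩ B γ ρ r)
        = ∑ j ∈ range r, volume (B γ ρ q ∩ B γ ρ r) := by simp
      _ = ∑ j ∈ range r, ∫⁻ x in B γ ρ r,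
          (((fun h : UnitAddCircle => h + ((j / r : ℝ) : UnitAddCircle)) ⁻¹' B γ ρ q).indicator
            (fun _ => (1 : ENNReal)) x) := Finset.sum_congr rfl (fun j _ => hinv j)
      _ = ∫⁻ x in B γ ρ r, ∑ j ∈ range r,
          (((fun h : UnitAddCircle => h + ((j / r : ℝ) : UnitAddCircle)) ⁻¹' B γ ρ q).indicator
            (fun _ => (1 : ENNReal)) x) := by
          rw [lintegral_finsetSum]
          intro j _
          apply Measurable.indicator measurable_const
          exact (measurableSet_B γ ρ q).preimage (by fun_prop)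
      _ ≤ ∫⁻ x in B γ ρ r, ENNReal.ofReal (2 * ρ q * r + Nat.gcd q r) := by
          apply lintegral_mono
          intro x
          exact card_shift γ ρ q r hr hρ x
      _ = ENNReal.ofReal (2 * ρ q * r + Nat.gcd q r) * volume (B γ ρ r) := by
          rw [lintegral_const, Measure.restrict_apply_univ]
  have hfin1 : volume (B γ ρ q ∩ B γ ρ r) ≠ ⊤ := measure_ne_top _ _
  have hfin2 : volume (B γ ρ r) ≠ ⊤ := measure_ne_top _ _
  have h2 := ENNReal.toReal_mono (ENNReal.mul_ne_top ENNReal.ofReal_ne_top hfin2) hsum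
  rw [ENNReal.toReal_mul, ENNReal.toReal_mul, ENNReal.toReal_natCast,
    ENNReal.toReal_ofReal (by positivity)] at h2
  have h3 : (2 * ρ q + Nat.gcd q r / r) * (volume (B γ ρ r)).toReal
      = ((2 * ρ q * r + Nat.gcd q r) * (volume (B γ ρ r)).toReal) / r := by
    field_simp
  rw [h3, le_div_iff₀ hrR]
  linarith

end

end Vale.Agent.P028h
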