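import Mathlib

open MeasureTheory Finset

namespace Vale.Agent.P028h

/-- Weighted second moment bound for the complement of a finite union. -/
theorem second_moment {X : Type*} [MeasurableSpace X] (μ : Measure X) [IsProbabilityMeasure μ]
    (F : Finset ℕ) (A : ℕ → Set X) (hA : ∀ q, MeasurableSet (A q)) (l : ℕ → ℝ)
    (S V : ℝ) (hS : S = ∑ q ∈ F, l q * μ.real (A q))
    (hV : ∑ q ∈ F, ∑ r ∈ F, l q * l r * μ.real (A q ∩ A r) ≤ V) :
    S ^ 2 * μ.real (⋃ q ∈ F, A q)ᶜ ≤ V - S ^ 2 := by
  classical
  let N : X → ℝ := fun x => ∑ q ∈ F, l q * (A q).indicator (fun _ => (1 : ℝ)) x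
  have hUm : MeasurableSet (⋃ q ∈ F, A q)ᶜ :=
    (Finset.measurableSet_biUnion F (fun q _ => hA q)).compl
  have hind : ∀ q, Integrable ((A q).indicator (fun _ => (1 : ℝ))) μ := fun q =>
    (integrable_const (1 : ℝ)).indicator (hA q)
  have hNint : Integrable N μ := by
    apply integrable_finsetSum
    intro q _
    exact (hind q).const_mul _
  have hN2 : ∀ x, N x ^ 2 = ∑ q ∈ F, ∑ r ∈ F, l q * l r * (A q ∩ A r).indicator (fun _ => (1 : ℝ)) x := by
    intro x
    simp only [N, sq, Finset.sum_mul_sum]
    apply Finset.sum_congr rfl; intro q _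
    apply Finset.sum_congr rfl; intro r _
    by_cases h1 : x ∈ A q <;> by_cases h2 : x ∈ A r <;> simp [Set.indicator, h1, h2]
  have hN2int : Integrable (fun x => N x ^ 2) μ := by
    simp_rw [hN2]
    apply integrable_finsetSum; intro q _
    apply integrable_finsetSum; intro r _
    exact ((integrable_const (1 : ℝ)).indicator ((hA q).inter (hA r))).const_mul _
  have hIN : ∫ x, N x ∂μ = S := by
    simp only [N]
    rw [integral_finsetSum]
    · rw [hS]; apply Finset.sum_congr rfl; intro q _
      rw [integral_const_mul, integral_indicator_const _ (hA q)]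
      simp
    · intro q _; exact (hind q).const_mul _
  have hIN2 : ∫ x, N x ^ 2 ∂μ ≤ V := by
    simp_rw [hN2]
    rw [integral_finsetSum]
    · refine le_trans (le_of_eq ?_) hV
      apply Finset.sum_congr rfl; intro q _
      rw [integral_finsetSum]
      · apply Finset.sum_congr rfl; intro r _
        rw [integral_const_mul, integral_indicator_const _ ((hA q).inter (hA r))]
        simp
      · intro r _
        exact ((integrable_const (1 : ℝ)).indicator ((hA q).inter (hA r))).const_mul _
    · intro q _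
      apply integrable_finsetSum; intro r _
      exact ((integrable_const (1 : ℝ)).indicator ((hA q).inter (hA r))).const_mul _
  have hvar : ∫ x, (N x - S) ^ 2 ∂μ ≤ V - S ^ 2 := by
    have h1 : ∀ x, (N x - S) ^ 2 = N x ^ 2 - 2 * S * N x + S ^ 2 := by intro x; ring
    simp_rw [h1]
    have e1 : ∫ x, (N x ^ 2 - 2 * S * N x + S ^ 2) ∂μ
        = ∫ x, (N x ^ 2 - 2 * S * N x) ∂μ + ∫ _x, S ^ 2 ∂μ :=
      integral_add (f := fun x => N x ^ 2 - 2 * S * N x) (g := fun _ => S ^ 2)
        (hN2int.sub (hNint.const_mul _)) (integrable_const _)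
    have e2 : ∫ x, (N x ^ 2 - 2 * S * N x) ∂μ = ∫ x, N x ^ 2 ∂μ - ∫ x, 2 * S * N x ∂μ :=
      integral_sub (f := fun x => N x ^ 2) (g := fun x => 2 * S * N x)
        hN2int (hNint.const_mul _)
    have e3 : ∫ x, 2 * S * N x ∂μ = 2 * S * S := by
      rw [integral_const_mul, hIN]
    have e4 : ∫ _x, S ^ 2 ∂μ = S ^ 2 := by simp
    rw [e1, e2, e3, e4]
    nlinarith [hIN2]
  have hlow : S ^ 2 * μ.real (⋃ q ∈ F, A q)ᶜ ≤ ∫ x, (N x - S) ^ 2 ∂μ := by
    have h1 : S ^ 2 * μ.real (⋃ q ∈ F, A q)ᶜ
        = ∫ x, ((⋃ q ∈ F, A q)ᶜ).indicator (fun _ => S ^ 2) x ∂μ := by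
      rw [integral_indicator_const _ hUm]
      simp [mul_comm]
    rw [h1]
    apply integral_mono ((integrable_const _).indicator hUm)
    · have h2 : (fun x => (N x - S) ^ 2) = fun x => N x ^ 2 - 2 * S * N x + S ^ 2 := by
        funext x; ring
      rw [h2]
      exact (hN2int.sub (hNint.const_mul _)).add (integrable_const _)
    · intro x
      by_cases hx : x ∈ (⋃ q ∈ F, A q)ᶜ
      · have hN0 : N x = 0 := by
          simp only [N]
          apply Finset.sum_eq_zero
          intro q hq
          have : x ∉ A q := fun h => hx (Set.mem_biUnion hq h)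
          simp [Set.indicator, this]
        simp only [Set.indicator_of_mem hx, hN0]
        simp
      · simp only [Set.indicator_of_notMem hx]
        positivity
  linarith

end Vale.Agent.P028h
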