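import Mathlib
import Vale.Agent.P028h.Overlap
import Vale.Agent.P028h.SecondMoment

open MeasureTheory Finset

namespace Vale.Agent.P028h

noncomputable section

instance : IsProbabilityMeasure (volume : Measure UnitAddCircle) :=
  ⟨by rw [AddCircle.measure_univ]; simp⟩

theorem real_B (γ ρ : ℕ → ℝ) (q : ℕ) (hq : 0 < q) (h0 : 0 ≤ ρ q) (h1 : ρ q ≤ 1 / 2) :
    (volume : Measure UnitAddCircle).real (B γ ρ q) = 2 * ρ q := by
  rw [measureReal_def, volume_B γ ρ q hq h1, ENNReal.toReal_ofReal (by linarith)]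

theorem circle_union (γ ρ : ℕ → ℝ) (F : Finset ℕ) (hF : ∀ q ∈ F, 0 < q)
    (h0 : ∀ q ∈ F, 0 ≤ ρ q) (h1 : ∀ q ∈ F, ρ q ≤ 1 / 2) (l : ℕ → ℝ)
    (hl0 : ∀ q ∈ F, 0 ≤ l q) (hl1 : ∀ q ∈ F, l q ≤ 1) (C : ℝ)
    (hC : ∀ r ∈ F, ∑ q ∈ F.filter (fun q => q < r), l q * (Nat.gcd q r : ℝ) ≤ C * r) :
    (∑ q ∈ F, l q * (2 * ρ q)) ^ 2 *
      (volume : Measure UnitAddCircle).real (⋃ q ∈ F, B γ ρ q)ᶜ
      ≤ (1 + 2 * C) * ∑ q ∈ F, l q * (2 * ρ q) := by
  classical
  set μ : Measure UnitAddCircle := volume with hμ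
  set S := ∑ q ∈ F, l q * (2 * ρ q) with hS
  have hv : ∀ q ∈ F, μ.real (B γ ρ q) = 2 * ρ q := fun q hq =>
    real_B γ ρ q (hF q hq) (h0 q hq) (h1 q hq)
  have hS' : S = ∑ q ∈ F, l q * μ.real (B γ ρ q) := by
    rw [hS]; apply Finset.sum_congr rfl; intro q hq; rw [hv q hq]
  have hpair : ∀ q ∈ F, ∀ r ∈ F, l q * l r * μ.real (B γ ρ q ∩ B γ ρ r) ≤
      (l q * (2 * ρ q)) * (l r * (2 * ρ r))
      + (if q = r then l r * (2 * ρ r) else 0)
      + (if q < r then (l r * (2 * ρ r)) * (l q * (Nat.gcd q r : ℝ)) / r else 0)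
      + (if r < q then (l q * (2 * ρ q)) * (l r * (Nat.gcd r q : ℝ)) / q else 0) := by
    intro q hq r hr
    have a1 := hl0 q hq
    have a2 := hl0 r hr
    have a3 := hl1 q hq
    have b1 := h0 q hq
    have b2 := h0 r hr
    have hll : 0 ≤ l q * l r := mul_nonneg a1 a2
    rcases lt_trichotomy q r with h | h | h
    · have ho := overlap γ ρ q r (hF r hr) b1
      have ho' : μ.real (B γ ρ q ∩ B γ ρ r) ≤ (2 * ρ q + Nat.gcd q r / r) * (2 * ρ r) := by
        rw [← hv r hr]; exact ho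
      rw [if_neg h.ne, if_pos h, if_neg h.not_gt]
      calc l q * l r * μ.real (B γ ρ q ∩ B γ ρ r)
          ≤ l q * l r * ((2 * ρ q + Nat.gcd q r / r) * (2 * ρ r)) :=
            mul_le_mul_of_nonneg_left ho' hll
        _ = _ := by ring
    · subst h
      rw [if_pos rfl, if_neg (lt_irrefl _), Set.inter_self, hv q hq]
      have : l q * l q * (2 * ρ q) ≤ l q * (2 * ρ q) := by
        have : l q * (2 * ρ q) ≤ 1 * (2 * ρ q) := mul_le_mul_of_nonneg_right a3 (by linarith)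
        nlinarith
      have h2 : 0 ≤ (l q * (2 * ρ q)) * (l q * (2 * ρ q)) := by positivity
      linarith
    · have ho := overlap γ ρ r q (hF q hq) b2
      have ho' : μ.real (B γ ρ q ∩ B γ ρ r) ≤ (2 * ρ r + Nat.gcd r q / q) * (2 * ρ q) := by
        rw [← hv q hq, Set.inter_comm]; exact ho
      rw [if_neg h.ne', if_neg h.not_gt, if_pos h]
      calc l q * l r * μ.real (B γ ρ q ∩ B γ ρ r)
          ≤ l q * l r * ((2 * ρ r + Nat.gcd r q / q) * (2 * ρ q)) :=
            mul_le_mul_of_nonneg_left ho' hll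
        _ = _ := by ring
  have hthird : ∑ q ∈ F, ∑ r ∈ F,
      (if q < r then (l r * (2 * ρ r)) * (l q * (Nat.gcd q r : ℝ)) / r else 0) ≤ C * S := by
    rw [Finset.sum_comm, hS, Finset.mul_sum]
    apply Finset.sum_le_sum
    intro r hr
    have hrpos : (0 : ℝ) < r := by exact_mod_cast hF r hr
    rw [← Finset.sum_filter]
    have : ∑ q ∈ F.filter (fun q => q < r), (l r * (2 * ρ r)) * (l q * (Nat.gcd q r : ℝ)) / r
        = (l r * (2 * ρ r)) * ((∑ q ∈ F.filter (fun q => q < r), l q * (Nat.gcd q r : ℝ)) / r) := by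
      rw [Finset.sum_div, Finset.mul_sum]
      apply Finset.sum_congr rfl; intro q _; ring
    rw [this, mul_comm C]
    apply mul_le_mul_of_nonneg_left
    · rw [div_le_iff₀ hrpos]; exact hC r hr
    · have := hl0 r hr; have := h0 r hr; positivity
  have hfourth : ∑ q ∈ F, ∑ r ∈ F,
      (if r < q then (l q * (2 * ρ q)) * (l r * (Nat.gcd r q : ℝ)) / q else 0) ≤ C * S := by
    rw [Finset.sum_comm]
    exact hthird
  have hV : ∑ q ∈ F, ∑ r ∈ F, l q * l r * μ.real (B γ ρ q ∩ B γ ρ r) ≤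
      S ^ 2 + (1 + 2 * C) * S := by
    calc ∑ q ∈ F, ∑ r ∈ F, l q * l r * μ.real (B γ ρ q ∩ B γ ρ r)
        ≤ ∑ q ∈ F, ∑ r ∈ F, ((l q * (2 * ρ q)) * (l r * (2 * ρ r))
      + (if q = r then l r * (2 * ρ r) else 0)
      + (if q < r then (l r * (2 * ρ r)) * (l q * (Nat.gcd q r : ℝ)) / r else 0)
      + (if r < q then (l q * (2 * ρ q)) * (l r * (Nat.gcd r q : ℝ)) / q else 0)) :=
          Finset.sum_le_sum (fun q hq => Finset.sum_le_sum (fun r hr => hpair q hq r hr))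
      _ = S ^ 2 + S + (∑ q ∈ F, ∑ r ∈ F,
      (if q < r then (l r * (2 * ρ r)) * (l q * (Nat.gcd q r : ℝ)) / r else 0))
        + (∑ q ∈ F, ∑ r ∈ F,
      (if r < q then (l q * (2 * ρ q)) * (l r * (Nat.gcd r q : ℝ)) / q else 0)) := by
          simp_rw [Finset.sum_add_distrib]
          congr 1
          congr 1
          congr 1
          · rw [hS, sq, Finset.sum_mul_sum]
          · rw [hS]
            apply Finset.sum_congr rfl
            intro q hq
            rw [Finset.sum_ite_eq F q, if_pos hq]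
      _ ≤ S ^ 2 + (1 + 2 * C) * S := by linarith
  have := second_moment μ F (B γ ρ) (measurableSet_B γ ρ) l S (S ^ 2 + (1 + 2 * C) * S) hS' hV
  linarith

/-- On the circle: the tail unions have full measure, under a finite-family criterion. -/
theorem tail_null (γ ψ : ℕ → ℝ) (h0 : ∀ q, 0 ≤ ψ q)
    (N : ℕ) (hN : 0 < N) (hψ : ∀ q, N ≤ q → ψ q ≤ 1 / 2)
    (hcrit : ∀ ε : ℝ, 0 < ε → ∃ (F : Finset ℕ) (C : ℝ), 0 ≤ C ∧ (∀ q ∈ F, N ≤ q ∧ 0 < ψ q) ∧
      (∀ r ∈ F, ∑ q ∈ F.filter (fun q => q < r), ((Nat.totient q : ℝ) / q) * (Nat.gcd q r : ℝ) ≤ C * r) ∧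
      (1 + 2 * C) ≤ ε * ∑ q ∈ F, ((Nat.totient q : ℝ) / q) * ψ q) :
    (volume : Measure UnitAddCircle)
      (⋃ q ∈ {q : ℕ | N ≤ q ∧ 0 < ψ q}, B γ (fun q => ψ q / 2) q)ᶜ = 0 := by
  classical
  set l : ℕ → ℝ := fun q => (Nat.totient q : ℝ) / q with hl
  have hl0 : ∀ q, 0 ≤ l q := fun q => by positivity
  have hl1 : ∀ q, l q ≤ 1 := fun q => by
    simp only [hl]
    apply div_le_one_of_le₀ _ (Nat.cast_nonneg _)
    exact_mod_cast Nat.totient_le q
  set U := ⋃ q ∈ {q : ℕ | N ≤ q ∧ 0 < ψ q}, B γ (fun q => ψ q / 2) q with hU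
  have hbound : ∀ ε : ℝ, 0 < ε → (volume : Measure UnitAddCircle).real Uᶜ ≤ ε := by
    intro ε hε
    obtain ⟨F, C, hC0, hFmem, hC, hS⟩ := hcrit ε hε
    have hsum : ∑ q ∈ F, l q * (2 * (ψ q / 2)) = ∑ q ∈ F, l q * ψ q := by
      apply Finset.sum_congr rfl
      intro q _
      ring
    have hmain := circle_union γ (fun q => ψ q / 2) F
      (fun q hq => lt_of_lt_of_le hN (hFmem q hq).1)
      (fun q hq => by have := h0 q; linarith)
      (fun q hq => by have := hψ q (hFmem q hq).1; linarith)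
      l (fun q _ => hl0 q) (fun q _ => hl1 q) C hC
    rw [hsum] at hmain
    set S := ∑ q ∈ F, l q * ψ q with hSdef
    have hSpos : 0 < S := by
      by_contra hneg
      push Not at hneg
      have : ε * S ≤ 0 := mul_nonpos_of_nonneg_of_nonpos hε.le hneg
      linarith
    have hsub : Uᶜ ⊆ (⋃ q ∈ F, B γ (fun q => ψ q / 2) q)ᶜ := by
      apply Set.compl_subset_compl.mpr
      apply Set.iUnion₂_subset
      intro q hq
      exact Set.subset_biUnion_of_mem (u := fun q => B γ (fun q => ψ q / 2) q)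
        (show q ∈ {q : ℕ | N ≤ q ∧ 0 < ψ q} from hFmem q hq)
    have h3 : (volume : Measure UnitAddCircle).real Uᶜ ≤
        (volume : Measure UnitAddCircle).real (⋃ q ∈ F, B γ (fun q => ψ q / 2) q)ᶜ :=
      measureReal_mono hsub
    have h4 : (volume : Measure UnitAddCircle).real (⋃ q ∈ F, B γ (fun q => ψ q / 2) q)ᶜ ≤ ε := by
      set v := (volume : Measure UnitAddCircle).real (⋃ q ∈ F, B γ (fun q => ψ q / 2) q)ᶜ
      have h5 : S * (S * v) ≤ S * (1 + 2 * C) := by nlinarith [hmain]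
      have h6 : S * v ≤ 1 + 2 * C := le_of_mul_le_mul_left h5 hSpos
      have h7 : S * v ≤ S * ε := by linarith
      exact le_of_mul_le_mul_left h7 hSpos
    linarith
  have hzero : (volume : Measure UnitAddCircle).real Uᶜ ≤ 0 := by
    apply le_of_forall_pos_le_add
    intro ε hε
    have := hbound ε hε
    linarith
  have h8 : (volume : Measure UnitAddCircle).real Uᶜ = 0 := le_antisymm hzero measureReal_nonneg
  rw [measureReal_def, ENNReal.toReal_eq_zero_iff] at h8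
  rcases h8 with h8 | h8
  · exact h8
  · exact absurd h8 (measure_ne_top _ _)

/-- Transfer of null sets from the circle to the line. -/
theorem line_null (Z : Set UnitAddCircle) (hZ : (volume : Measure UnitAddCircle) Z = 0) :
    (volume : Measure ℝ) {x : ℝ | (x : UnitAddCircle) ∈ Z} = 0 := by
  have hcov : {x : ℝ | (x : UnitAddCircle) ∈ Z} =
      ⋃ n : ℤ, ({x : ℝ | (x : UnitAddCircle) ∈ Z} ∩ Set.Ioc (n : ℝ) (n + 1)) := by
    ext x
    simp only [Set.mem_iUnion, Set.mem_inter_iff]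
    constructor
    · intro h
      refine ⟨⌈x⌉ - 1, h, ?_⟩
      push_cast
      constructor
      · have := Int.ceil_lt_add_one x; linarith
      · have := Int.le_ceil x; linarith
    · rintro ⟨_, h, _⟩; exact h
  rw [hcov]
  apply measure_iUnion_null
  intro n
  have hmp := UnitAddCircle.measurePreserving_mk (n : ℝ)
  have h1 := hmp.quasiMeasurePreserving.preimage_null hZ
  rw [Measure.restrict_apply₀'] at h1
  · exact h1
  · exact measurableSet_Ioc.nullMeasurableSet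

/-- Main theorem on the line. -/
theorem main (γ ψ : ℕ → ℝ) (h0 : ∀ q, 0 ≤ ψ q)
    (hcrit : ∀ N : ℕ, ∀ ε : ℝ, 0 < ε → ∃ (F : Finset ℕ) (C : ℝ), 0 ≤ C ∧
      (∀ q ∈ F, N ≤ q ∧ 0 < ψ q) ∧
      (∀ r ∈ F, ∑ q ∈ F.filter (fun q => q < r), ((Nat.totient q : ℝ) / q) * (Nat.gcd q r : ℝ) ≤ C * r) ∧
      (1 + 2 * C) ≤ ε * ∑ q ∈ F, ((Nat.totient q : ℝ) / q) * ψ q) :
    (volume : Measure ℝ)
      {x : ℝ | {q : ℕ | 0 < q ∧ |q * x - γ q - round (q * x - γ q)| < ψ q}.Infinite}ᶜ = 0 := by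
  classical
  by_cases hbig : {q : ℕ | 1 / 2 < ψ q}.Infinite
  · have : {x : ℝ | {q : ℕ | 0 < q ∧ |q * x - γ q - round (q * x - γ q)| < ψ q}.Infinite}ᶜ = ∅ := by
      rw [Set.compl_empty_iff]
      ext x
      simp only [Set.mem_univ, iff_true]
      show {q : ℕ | 0 < q ∧ |q * x - γ q - round (q * x - γ q)| < ψ q}.Infinite
      have h1 : ({q : ℕ | 1 / 2 < ψ q} \ {0}).Infinite := hbig.sdiff (Set.finite_singleton 0)
      apply h1.mono
      rintro q ⟨hq1, hq2⟩
      refine ⟨Nat.pos_of_ne_zero (by simpa using hq2), ?_⟩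
      have := abs_sub_round (q * x - γ q)
      have hq3 : 1 / 2 < ψ q := hq1
      linarith
    rw [this, measure_empty]
  · rw [Set.not_infinite] at hbig
    obtain ⟨N0, hN0⟩ := hbig.bddAbove
    have hψ : ∀ q, N0 + 1 ≤ q → ψ q ≤ 1 / 2 := by
      intro q hq
      by_contra h
      push Not at h
      have : q ≤ N0 := hN0 h
      omega
    let Z : Set UnitAddCircle := ⋃ n : ℕ,
      (⋃ q ∈ {q : ℕ | N0 + 1 + n ≤ q ∧ 0 < ψ q}, B γ (fun q => ψ q / 2) q)ᶜ
    have hZ : (volume : Measure UnitAddCircle) Z = 0 := by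
      apply measure_iUnion_null
      intro n
      exact tail_null γ ψ h0 (N0 + 1 + n) (by omega)
        (fun q hq => hψ q (by omega)) (hcrit (N0 + 1 + n))
    apply measure_mono_null _ (line_null Z hZ)
    intro x hx
    show (x : UnitAddCircle) ∈ Z
    by_contra hxZ
    apply hx
    show {q : ℕ | 0 < q ∧ |q * x - γ q - round (q * x - γ q)| < ψ q}.Infinite
    rw [Set.infinite_iff_exists_gt]
    intro m
    have h1 : (x : UnitAddCircle) ∈
        ⋃ q ∈ {q : ℕ | N0 + 1 + m ≤ q ∧ 0 < ψ q}, B γ (fun q => ψ q / 2) q := by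
      by_contra h
      exact hxZ (Set.mem_iUnion.mpr ⟨m, h⟩)
    rw [Set.mem_iUnion₂] at h1
    obtain ⟨q, hq, hxq⟩ := h1
    obtain ⟨hq1, hq2⟩ := hq
    rw [mem_B_coe] at hxq
    refine ⟨q, ⟨by omega, ?_⟩, by omega⟩
    linarith

end

end Vale.Agent.P028h
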