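import Mathlib
import Vale.Agent.P028h.Main
import Vale.Agent.P028h.Arith

open MeasureTheory Finset

namespace Vale.Agent.P028h

noncomputable section

/-- the limsup set in raw form -/
def Wraw (γ ψ : ℕ → ℝ) : Set ℝ :=
  {x : ℝ | {q : ℕ | 0 < q ∧ |q * x - γ q - round (q * x - γ q)| < ψ q}.Infinite}

theorem th_le_one (q : ℕ) : th q ≤ 1 := by
  unfold th
  apply div_le_one_of_le₀ _ (Nat.cast_nonneg _)
  exact_mod_cast Nat.totient_le q

/-- Gcd-sum criterion with constant `C` on the support. -/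
theorem crit_gcd (A : Set ℕ) (C : ℝ)
    (hC : ∀ r ∈ A, ∀ F : Finset ℕ, (∀ q ∈ F, q ∈ A ∧ 0 < q ∧ q < r) →
      ∑ q ∈ F, ((Nat.totient q : ℝ) / q) * (Nat.gcd q r : ℝ) ≤ C * r)
    (γ ψ : ℕ → ℝ) (h0 : ∀ q, 0 ≤ ψ q) (hA : ∀ q, q ∉ A → ψ q = 0)
    (hdiv : ¬ Summable (fun q : ℕ => ((Nat.totient q : ℝ) / q) * ψ q)) :
    (volume : Measure ℝ) (Wraw γ ψ)ᶜ = 0 := by
  classical
  apply main γ ψ h0
  intro N ε hε
  have hterm0 : ∀ q, 0 ≤ ((Nat.totient q : ℝ) / q) * ψ q := fun q =>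
    mul_nonneg (by positivity) (h0 q)
  have hdivN : ∀ K : ℝ, ∃ M : ℕ, K < ∑ q ∈ Finset.Ico (N + 1) M, ((Nat.totient q : ℝ) / q) * ψ q := by
    intro K
    by_contra hcon
    push Not at hcon
    apply hdiv
    apply summable_of_sum_range_le
      (c := K + ∑ q ∈ Finset.range (N + 1), ((Nat.totient q : ℝ) / q) * ψ q) hterm0
    intro n
    rcases le_total (N + 1) n with h | h
    · rw [← Finset.sum_range_add_sum_Ico _ h]
      have := hcon n
      linarith
    · have h1 : ∑ q ∈ Finset.range n, ((Nat.totient q : ℝ) / q) * ψ q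
          ≤ ∑ q ∈ Finset.range (N + 1), ((Nat.totient q : ℝ) / q) * ψ q :=
        Finset.sum_le_sum_of_subset_of_nonneg (Finset.range_subset_range.mpr h)
          (fun q _ _ => hterm0 q)
      have h2 := hcon (N + 1)
      simp at h2
      linarith
  obtain ⟨M, hM⟩ := hdivN ((1 + 2 * |C|) / ε)
  set F := (Finset.Ico (N + 1) M).filter (fun q => 0 < ψ q) with hF
  have hFmem : ∀ q ∈ F, N + 1 ≤ q ∧ 0 < ψ q := by
    intro q hq
    rw [hF, Finset.mem_filter, Finset.mem_Ico] at hq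
    exact ⟨hq.1.1, hq.2⟩
  have hFA : ∀ q ∈ F, q ∈ A := by
    intro q hq
    by_contra h
    have := hA q h
    have := (hFmem q hq).2
    linarith
  refine ⟨F, |C|, abs_nonneg C, fun q hq => ⟨by have := (hFmem q hq).1; omega, (hFmem q hq).2⟩, ?_, ?_⟩
  · intro r hr
    have h1 := hC r (hFA r hr) (F.filter (fun q => q < r)) (by
      intro q hq
      rw [Finset.mem_filter] at hq
      exact ⟨hFA q hq.1, by have := (hFmem q hq.1).1; omega, hq.2⟩)
    have h2 : C * r ≤ |C| * r := mul_le_mul_of_nonneg_right (le_abs_self C) (Nat.cast_nonneg r)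
    linarith
  · have hsum : ∑ q ∈ F, ((Nat.totient q : ℝ) / q) * ψ q
        = ∑ q ∈ Finset.Ico (N + 1) M, ((Nat.totient q : ℝ) / q) * ψ q := by
      rw [hF, Finset.sum_filter]
      apply Finset.sum_congr rfl
      intro q _
      split_ifs with h
      · rfl
      · have : ψ q = 0 := le_antisymm (not_lt.mp h) (h0 q)
        rw [this]; ring
    rw [hsum]
    rw [div_lt_iff₀ hε] at hM
    linarith

/-- Divergence along sets with controlled number of divisors. -/
theorem crit_div (γ ψ : ℕ → ℝ) (h0 : ∀ q, 0 ≤ ψ q)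
    (h : ∀ K : ℝ, ∃ (t : ℕ) (F : Finset ℕ), (∀ q ∈ F, 0 < q ∧ q.divisors.card ≤ t) ∧
      K * t < ∑ q ∈ F, ((Nat.totient q : ℝ) / q) * ψ q) :
    (volume : Measure ℝ) (Wraw γ ψ)ᶜ = 0 := by
  classical
  apply main γ ψ h0
  intro N ε hε
  have hterm0 : ∀ q, 0 ≤ ((Nat.totient q : ℝ) / q) * ψ q := fun q =>
    mul_nonneg (by positivity) (h0 q)
  set c := ∑ q ∈ Finset.range N, ((Nat.totient q : ℝ) / q) * ψ q with hc
  have hc0 : 0 ≤ c := Finset.sum_nonneg (fun q _ => hterm0 q)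
  obtain ⟨t, F, hF, hK⟩ := h (c + 3 / ε)
  -- t must be positive
  have ht : 1 ≤ t := by
    rcases Nat.eq_zero_or_pos t with h1 | h1
    · exfalso
      have hFe : F = ∅ := by
        rw [Finset.eq_empty_iff_forall_notMem]
        intro q hq
        obtain ⟨hq1, hq2⟩ := hF q hq
        have : 0 < q.divisors.card := Finset.card_pos.mpr ⟨1, Nat.one_mem_divisors.mpr hq1.ne'⟩
        omega
      rw [hFe, h1] at hK
      simp at hK
    · exact h1
  have htR : (1 : ℝ) ≤ t := by exact_mod_cast ht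
  set G := F.filter (fun q => N ≤ q ∧ 0 < ψ q) with hG
  have hGmem : ∀ q ∈ G, q ∈ F ∧ N ≤ q ∧ 0 < ψ q := by
    intro q hq
    rw [hG, Finset.mem_filter] at hq
    exact hq
  refine ⟨G, t, Nat.cast_nonneg t, fun q hq => (hGmem q hq).2, ?_, ?_⟩
  · intro r hr
    obtain ⟨hr1, hr2, hr3⟩ := hGmem r hr
    obtain ⟨hr4, hr5⟩ := hF r hr1
    have h1 := sum_bdd r t hr4 hr5
    refine le_trans ?_ h1
    apply Finset.sum_le_sum_of_subset_of_nonneg
    · intro q hq
      rw [Finset.mem_filter] at hq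
      exact Finset.mem_range.mpr hq.2
    · intro q _ _
      exact mul_nonneg (th_nonneg q) (Nat.cast_nonneg _)
  · have hsplit : ∑ q ∈ F, ((Nat.totient q : ℝ) / q) * ψ q
        ≤ ∑ q ∈ G, ((Nat.totient q : ℝ) / q) * ψ q + c := by
      have h1 : ∑ q ∈ F, ((Nat.totient q : ℝ) / q) * ψ q
          = ∑ q ∈ G, ((Nat.totient q : ℝ) / q) * ψ q
            + ∑ q ∈ F.filter (fun q => ¬ (N ≤ q ∧ 0 < ψ q)), ((Nat.totient q : ℝ) / q) * ψ q := by
        rw [hG, Finset.sum_filter_add_sum_filter_not]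
      rw [h1]
      have h2 : ∑ q ∈ F.filter (fun q => ¬ (N ≤ q ∧ 0 < ψ q)), ((Nat.totient q : ℝ) / q) * ψ q ≤ c := by
        have h3 : ∑ q ∈ F.filter (fun q => ¬ (N ≤ q ∧ 0 < ψ q)), ((Nat.totient q : ℝ) / q) * ψ q
            = ∑ q ∈ (F.filter (fun q => ¬ (N ≤ q ∧ 0 < ψ q))).filter (fun q => q < N),
                ((Nat.totient q : ℝ) / q) * ψ q := by
          rw [Finset.sum_filter (fun q => q < N)]
          apply Finset.sum_congr rfl
          intro q hq
          rw [Finset.mem_filter] at hq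
          split_ifs with h4
          · rfl
          · have h5 : ¬ 0 < ψ q := fun h6 => hq.2 ⟨not_lt.mp h4, h6⟩
            have h7 : ψ q = 0 := le_antisymm (not_lt.mp h5) (h0 q)
            rw [h7, mul_zero]
        rw [h3, hc]
        apply Finset.sum_le_sum_of_subset_of_nonneg
        · intro q hq
          rw [Finset.mem_filter] at hq
          exact Finset.mem_range.mpr hq.2
        · intro q _ _; exact hterm0 q
      linarith
    have h8 : 3 / ε * t ≤ ∑ q ∈ G, ((Nat.totient q : ℝ) / q) * ψ q := by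
      have h9 : (c + 3 / ε) * t = c * t + 3 / ε * t := by ring
      have h10 : c * 1 ≤ c * t := mul_le_mul_of_nonneg_left htR hc0
      linarith
    have h11 : ε * (3 / ε * t) ≤ ε * ∑ q ∈ G, ((Nat.totient q : ℝ) / q) * ψ q :=
      mul_le_mul_of_nonneg_left h8 hε.le
    have h12 : ε * (3 / ε * t) = 3 * t := by field_simp
    rw [h12] at h11
    linarith

/-- The set of perfect `k`-th powers satisfies the gcd-sum criterion with constant one. -/
theorem powers_ok (k : ℕ) (hk : 2 ≤ k) :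
    ∀ r ∈ {q : ℕ | ∃ n : ℕ, q = n ^ k}, ∀ F : Finset ℕ,
      (∀ q ∈ F, q ∈ {q : ℕ | ∃ n : ℕ, q = n ^ k} ∧ 0 < q ∧ q < r) →
      ∑ q ∈ F, ((Nat.totient q : ℝ) / q) * (Nat.gcd q r : ℝ) ≤ 1 * r := by
  classical
  rintro r ⟨n, rfl⟩ F hF
  have hk0 : k ≠ 0 := by omega
  rcases Nat.eq_zero_or_pos n with hn | hn
  · subst hn
    have : F = ∅ := by
      rw [Finset.eq_empty_iff_forall_notMem]
      intro q hq
      have := (hF q hq).2.2
      rw [zero_pow hk0] at this
      omega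
    rw [this]; simp
  · have hroot : ∀ q ∈ F, ∃ m : ℕ, q = m ^ k ∧ 0 < m ∧ m < n := by
      intro q hq
      obtain ⟨⟨m, hm⟩, h1, h2⟩ := hF q hq
      refine ⟨m, hm, ?_, ?_⟩
      · rcases Nat.eq_zero_or_pos m with h | h
        · subst h; rw [zero_pow hk0] at hm; omega
        · exact h
      · rw [hm] at h2
        exact lt_of_pow_lt_pow_left₀ k (Nat.zero_le _) h2
    have hsub : F ⊆ ((Finset.range n).filter (fun m => 0 < m)).image (fun m => m ^ k) := by
      intro q hq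
      obtain ⟨m, hm, h1, h2⟩ := hroot q hq
      rw [Finset.mem_image]
      exact ⟨m, Finset.mem_filter.mpr ⟨Finset.mem_range.mpr h2, h1⟩, hm.symm⟩
    have h1 : ∑ q ∈ F, ((Nat.totient q : ℝ) / q) * (Nat.gcd q (n ^ k) : ℝ)
        ≤ ∑ q ∈ ((Finset.range n).filter (fun m => 0 < m)).image (fun m => m ^ k),
          ((Nat.totient q : ℝ) / q) * (Nat.gcd q (n ^ k) : ℝ) :=
      Finset.sum_le_sum_of_subset_of_nonneg hsub (fun q _ _ => by positivity)
    refine h1.trans ?_
    rw [Finset.sum_image]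
    · have h2 : ∀ m ∈ (Finset.range n).filter (fun m => 0 < m),
          ((Nat.totient (m ^ k) : ℝ) / ((m ^ k : ℕ) : ℝ)) * (Nat.gcd (m ^ k) (n ^ k) : ℝ)
          = th m * ((Nat.gcd m n : ℝ)) ^ k := by
        intro m hm
        rw [Finset.mem_filter] at hm
        have h3 : th (m ^ k) = th m := th_pow m k hk0 hm.2.ne'
        have h4 : Nat.gcd (m ^ k) (n ^ k) = (Nat.gcd m n) ^ k := Nat.pow_gcd_pow
        rw [h4]
        have h5 : ((Nat.totient (m ^ k) : ℝ) / ((m ^ k : ℕ) : ℝ)) = th (m ^ k) := rfl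
        rw [h5, h3]
        push_cast
        rfl
      rw [Finset.sum_congr rfl h2, one_mul]
      have h6 := sum_pow k n hk hn
      push_cast
      refine le_trans ?_ h6
      apply Finset.sum_le_sum_of_subset_of_nonneg (Finset.filter_subset _ _)
      intro m _ _
      exact mul_nonneg (th_nonneg m) (by positivity)
    · intro a _ b _ hab
      exact Nat.pow_left_injective hk0 hab

theorem divisors_ok (k : ℕ) :
    ∀ r ∈ {q : ℕ | 0 < q ∧ q.divisors.card ≤ k}, ∀ F : Finset ℕ,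
      (∀ q ∈ F, q ∈ {q : ℕ | 0 < q ∧ q.divisors.card ≤ k} ∧ 0 < q ∧ q < r) →
      ∑ q ∈ F, ((Nat.totient q : ℝ) / q) * (Nat.gcd q r : ℝ) ≤ k * r := by
  rintro r ⟨hr, hrk⟩ F hF
  refine le_trans ?_ (sum_bdd r k hr hrk)
  apply Finset.sum_le_sum_of_subset_of_nonneg
  · intro q hq
    exact Finset.mem_range.mpr (hF q hq).2.2
  · intro q _ _
    exact mul_nonneg (th_nonneg q) (Nat.cast_nonneg _)

end

end Vale.Agent.P028h
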